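import Vale.Agent.Lib.P295.Quad

/-! P295: every stable coordinate of degree at most two is a coordinate, in any number of
variables; and every polynomial with a constant directional derivative is a coordinate. -/

namespace Vale.Agent.Results.P295.Quadratic

open MvPolynomial Vale.Agent.P295

theorem result :
    (∀ (n : ℕ) (f : MvPolynomial (Fin n) ℂ), f.totalDegree ≤ 2 → IsStableCoordinate f →
      IsCoordinate f) ∧
    (∀ (n : ℕ) (f : MvPolynomial (Fin n) ℂ), f.totalDegree ≤ 2 →
      ((∀ a : Fin n → ℂ, ∃ j, eval a (pderiv j f) ≠ 0) ↔ IsCoordinate f)) ∧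
    (∀ (n : ℕ) (f : MvPolynomial (Fin n) ℂ) (v : Fin n → ℂ) (g : ℂ), g ≠ 0 →
      ∑ j, C (v j) * pderiv j f = C g → IsCoordinate f) := by
  have key : ∀ (n : ℕ) (f : MvPolynomial (Fin n) ℂ), f.totalDegree ≤ 2 →
      (∀ a : Fin n → ℂ, ∃ j, eval a (pderiv j f) ≠ 0) → IsCoordinate f := by
    intro n f hf hg
    obtain ⟨v, g, hg0, hv⟩ := exists_dir f hf hg
    exact coordinate_of_dir f v g hg0 hv
  exact ⟨fun n f hf hs => key n f hf (stable_grad_ne f hs),
    fun n f hf => ⟨key n f hf, fun hc a => grad_ne f hc a⟩,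
    fun n f v g hg hv => coordinate_of_dir f v g hg hv⟩

end Vale.Agent.Results.P295.Quadratic
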