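import Vale.Agent.Lib.P295.Weighted

/-! P295: every stable coordinate which is weighted homogeneous for positive integer weights, or
for nonnegative integer weights when at most two variables have the weight of the polynomial, is a
coordinate, in any number of variables; the same in degree at most two. -/

namespace Vale.Agent.Results.P295.Weighted

open MvPolynomial Vale.Agent.P295

theorem result :
    (∀ (n : ℕ) (f : MvPolynomial (Fin n) ℂ) (w : Fin n → ℕ) (d : ℕ) (a : ℂ),
      (∀ i, 0 < w i) → IsWeightedHomogeneous w (f - C a) d → IsStableCoordinate f →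
      IsCoordinate f) ∧
    (∀ (n : ℕ) (f : MvPolynomial (Fin n) ℂ) (w : Fin n → ℕ) (d : ℕ) (a : ℂ) (j k : Fin n),
      0 < d → (∀ i, w i = d → i = j ∨ i = k) → IsWeightedHomogeneous w (f - C a) d →
      IsStableCoordinate f → IsCoordinate f) ∧
    (∀ (n : ℕ) (f : MvPolynomial (Fin n) ℂ), f.totalDegree ≤ 2 → IsStableCoordinate f →
      IsCoordinate f) := by
  refine ⟨fun n f w d a hpos hw hf => main_pos hf hw hpos,
    fun n f w d a j k hd hjk hw hf => main_two hf hd hw hjk, fun n f hf hs => ?_⟩
  obtain ⟨v, g, hg0, hv⟩ := exists_dir f hf (stable_grad_ne f hs)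
  exact coordinate_of_dir f v g hg0 hv

end Vale.Agent.Results.P295.Weighted
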