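import Vale.Agent.Lib.P295.WeightedC

/-! P295: every stable coordinate which is weighted homogeneous for nonnegative integer weights,
with at most one variable of weight zero or with at most two variables having the weight of the
polynomial, is a coordinate, in any number of variables; the same in degree at most two. -/

namespace Vale.Agent.Results.P295.WeightedFull

open MvPolynomial Vale.Agent.P295

theorem result :
    (∀ (n : ℕ) (f : MvPolynomial (Fin n) ℂ) (w : Fin n → ℕ) (d : ℕ) (a : ℂ),
      0 < d → (∀ i j, w i = 0 → w j = 0 → i = j) → IsWeightedHomogeneous w (f - C a) d →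
      IsStableCoordinate f → IsCoordinate f) ∧
    (∀ (n : ℕ) (f : MvPolynomial (Fin n) ℂ) (w : Fin n → ℕ) (d : ℕ) (a : ℂ) (j k : Fin n),
      0 < d → (∀ i, w i = d → i = j ∨ i = k) → IsWeightedHomogeneous w (f - C a) d →
      IsStableCoordinate f → IsCoordinate f) ∧
    (∀ (n : ℕ) (f : MvPolynomial (Fin n) ℂ), f.totalDegree ≤ 2 → IsStableCoordinate f →
      IsCoordinate f) := by
  refine ⟨fun n f w d a hd hu hw hf => main_one hf hd hw hu,
    fun n f w d a j k hd hjk hw hf => main_two hf hd hw hjk, fun n f hf hs => ?_⟩
  obtain ⟨v, g, hg0, hv⟩ := exists_dir f hf (stable_grad_ne f hs)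
  exact coordinate_of_dir f v g hg0 hv

end Vale.Agent.Results.P295.WeightedFull
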